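import Vale.Agent.P147.ThmA
import Vale.Agent.P147.ThmB
import Vale.Agent.P147.ThmC
import Vale.Agent.P147.Red

namespace Vale.Agent.Results.P147.Exclusion

open MeasureTheory Vale.Agent.P147
open scoped ENNReal

theorem neg_cast {d : ℕ} (ℓ : Fin d → ℤ) :
    (-fun i => (ℓ i : ℝ)) = fun i => (((-ℓ) i : ℤ) : ℝ) := by
  funext i; simp

theorem thin_case {d : ℕ} (μ : Measure (St d → ℝ)) [IsProbabilityMeasure μ] (hμ : Elliptic μ)
    (P : Measure (ℕ → St d)) (hP : IsAnnealed μ P) (hd : 3 ≤ d) (ℓ : Fin d → ℝ)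
    (h1 : 0 < P (RangeEscape ℓ 1)) (h2 : 0 < P (RangeEscape (-ℓ) 1)) : False := by
  obtain ⟨m, g1, g2⟩ := perturb P ℓ h1 h2
  obtain ⟨s, hs⟩ := nonempty_of_measure_ne_zero g1.ne'
  obtain ⟨lam, i0, hT⟩ := exists_top (ne_zero_of_escape ⟨s, hs.1⟩)
  obtain ⟨k1, e1, t1⟩ := thin_of_range hμ hP m 1 one_pos le_rfl g1
  obtain ⟨k2, e2, t2⟩ := thin_of_range hμ hP (-m) 1 one_pos le_rfl g2
  simp only [div_one, ENNReal.rpow_one] at t1 t2
  have hmono : ∀ k : ℕ, Monotone fun h : ℤ => (k : ℝ≥0∞) * ENNReal.ofReal h := fun k a b hab =>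
    mul_le_mul_right (ENNReal.ofReal_le_ofReal (by exact_mod_cast hab)) _
  by_cases ht : Tight μ (-m)
  · refine thmA (η₂ := e1) hμ (by omega) hT.neg (t2.mono monotone_const fun _ => le_top) ?_ ht
    rw [neg_neg]
    exact t1.mono monotone_const fun _ => le_top
  · refine thmB hμ hd hT (max k1 k2) (t1.mono (hmono _) fun h => ?_)
      (t2.mono (hmono _) fun h => ?_) ht
    · exact mul_le_mul_left (by exact_mod_cast le_max_left _ _) _
    · exact mul_le_mul_left (by exact_mod_cast le_max_right _ _) _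

theorem result (d : ℕ) (μ : Measure (St d → ℝ)) [IsProbabilityMeasure μ] (hμ : Elliptic μ)
    (P : Measure (ℕ → St d)) (hP : IsAnnealed μ P) :
    (3 ≤ d → ∀ ℓ : Fin d → ℝ, ¬(0 < P (Ballistic ℓ) ∧ 0 < P (Ballistic (-ℓ)))) ∧
    (3 ≤ d → ∀ ℓ : Fin d → ℝ, ¬(0 < P (RangeEscape ℓ 1) ∧ 0 < P (RangeEscape (-ℓ) 1))) ∧
    (2 ≤ d → ∀ (m : Fin d → ℤ) (ℓ : Fin d → ℝ), (∀ i, ℓ i = m i) →
      Diffusive P ℓ → P (Escape (-ℓ)) = 0) ∧
    (∀ (m : Fin d → ℤ) (ℓ : Fin d → ℝ) (a b : ℝ), (∀ i, ℓ i = m i) → 0 < a → a ≤ 1 → 0 < b →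
      b ≤ 1 → 1 / a + 1 / b < (d + 1) / 2 →
      ¬(0 < P (RangeEscape ℓ a) ∧ 0 < P (RangeEscape (-ℓ) b))) := by
  refine ⟨fun hd ℓ h => thin_case μ hμ P hP hd ℓ ?_ ?_, fun hd ℓ h => thin_case μ hμ P hP hd ℓ h.1 h.2,
    fun hd m ℓ hm hD => ?_, fun m ℓ a b hm ha ha1 hb hb1 hab h => ?_⟩
  · exact h.1.trans_le (measure_mono (ballistic_subset _))
  · exact h.2.trans_le (measure_mono (ballistic_subset _))
  · obtain rfl : ℓ = fun i => (m i : ℝ) := funext hm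
    by_contra h0
    have h2 := pos_iff_ne_zero.2 h0
    rw [neg_cast] at h2
    have h1 : 0 < P (Escape fun i => (m i : ℝ)) := by
      obtain ⟨K, c, hc, hev⟩ := hD
      obtain ⟨n, a, hn⟩ := hev.exists
      exact hc.trans_le (hn.trans (measure_mono fun s hs => hs.1))
    obtain ⟨s, hs⟩ := nonempty_of_measure_ne_zero h1.ne'
    obtain ⟨lam, i0, hT⟩ := exists_top (ne_zero_of_escape ⟨s, hs⟩)
    obtain ⟨e1, t1⟩ := thin_of_escape hμ hP m h1
    obtain ⟨e2, t2⟩ := thin_of_escape hμ hP (-m) h2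
    exact thmA hμ hd hT t1 t2 (tight_of_diffusive hμ hP hT hD)
  · obtain rfl : ℓ = fun i => (m i : ℝ) := funext hm
    obtain ⟨h1, h2⟩ := h
    rw [neg_cast] at h2
    obtain ⟨s, hs⟩ := nonempty_of_measure_ne_zero h1.ne'
    obtain ⟨lam, i0, hT⟩ := exists_top (ne_zero_of_escape ⟨s, hs.1⟩)
    obtain ⟨k1, e1, t1⟩ := thin_of_range hμ hP m a ha ha1 h1
    obtain ⟨k2, e2, t2⟩ := thin_of_range hμ hP (-m) b hb hb1 h2
    have a1 : 1 ≤ 1 / a := by rw [le_div_iff₀ ha]; linarith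
    have b1 : 1 ≤ 1 / b := by rw [le_div_iff₀ hb]; linarith
    have hd : 2 ≤ d := by
      have : (3 : ℝ) < d := by linarith
      have : 3 < d := by exact_mod_cast this
      omega
    exact thmC hμ hd hT k1 k2 _ _ a1 b1 hab t1 t2

end Vale.Agent.Results.P147.Exclusion
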