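import Vale.Agent.P147F.Core

namespace Vale.Agent.Results.P147.ZeroOne

open MeasureTheory Vale.Agent.P147

theorem result (d : ℕ) (hd : 3 ≤ d) (μ : Measure (St d → ℝ)) [IsProbabilityMeasure μ]
    (hμ : Elliptic μ) :
    (∃ P, IsAnnealed μ P) ∧ ∀ P, IsAnnealed μ P → ∀ ℓ : Fin d → ℝ, ℓ ≠ 0 →
      P (Escape ℓ) = 0 ∨ P (Escape ℓ) = 1 :=
  ⟨P147F.exists_annealed hμ, fun _ hP _ hℓ => P147F.zero_one hd hμ hP hℓ⟩

end Vale.Agent.Results.P147.ZeroOne
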